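import Vale.Agent.P181.R2.H553.CDefs

/-!
The corner family: homogeneity, semi-invariance, symmetry, vanishing.
-/

set_option autoImplicit false

open scoped TensorProduct
open MvPolynomial

namespace Vale.Agent.P181.H553

open Vale.Agent.P181 Vale.Agent.P181.H280 Vale.Agent.P181.H179

namespace CRA1

/-- The weight which counts the variables of the point `l`. -/
abbrev wl {r : ℕ} (l : Fin r) : Fin r × Fin 3 → ℕ := fun s => if s.1 = l then 1 else 0

lemma whom_br {r : ℕ} (l i j k : Fin r) :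
    IsWeightedHomogeneous (wl l) (br i j k) (∑ u : Fin 3, if ![i, j, k] u = l then 1 else 0) := by
  unfold br
  rw [Matrix.det_apply]
  refine IsWeightedHomogeneous.sum _ _ _ fun σ _ => ?_
  rw [Units.smul_def, zsmul_eq_mul]
  have h1 : IsWeightedHomogeneous (wl l) (((Equiv.Perm.sign σ : ℤ) : MvPolynomial (Fin r × Fin 3) ℂ)) 0 := by
    have : (((Equiv.Perm.sign σ : ℤ) : MvPolynomial (Fin r × Fin 3) ℂ)) =
        C ((Equiv.Perm.sign σ : ℤ) : ℂ) := by simp
    rw [this]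
    exact isWeightedHomogeneous_C _ _
  have h2 := IsWeightedHomogeneous.prod (Finset.univ : Finset (Fin 3))
    (fun u : Fin 3 => (X (![i, j, k] (σ u), u) : MvPolynomial (Fin r × Fin 3) ℂ))
    (fun u => wl l (![i, j, k] (σ u), u)) (w := wl l)
    (fun u _ => isWeightedHomogeneous_X ℂ (wl l) (![i, j, k] (σ u), u))
  have h3 := h1.mul h2
  rw [zero_add] at h3
  have h4 : (∑ u : Fin 3, wl l (![i, j, k] (σ u), u)) =
      ∑ u : Fin 3, if ![i, j, k] u = l then 1 else 0 :=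
    Equiv.sum_comp σ (fun u : Fin 3 => if ![i, j, k] u = l then (1 : ℕ) else 0)
  rw [h4] at h3
  exact h3

lemma whom_pow {r : ℕ} {l : Fin r} {Q : MvPolynomial (Fin r × Fin 3) ℂ} {d : ℕ}
    (h : IsWeightedHomogeneous (wl l) Q d) (n : ℕ) :
    IsWeightedHomogeneous (wl l) (Q ^ n) (n * d) := by
  have := h.pow n
  rwa [smul_eq_mul] at this

lemma sum_pent (l : Fin 5) :
    (∑ i : Fin 5, ∑ u : Fin 3, if ![i, i + 1, i + 2] u = l then 1 else 0) = 3 := by
  revert l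
  decide

lemma whom_Wp (l : Fin 5) (σ : Equiv.Perm (Fin 5)) : IsWeightedHomogeneous (wl l) (Wp σ) 3 := by
  unfold Wp
  have h := IsWeightedHomogeneous.prod (Finset.univ : Finset (Fin 5))
    (fun i : Fin 5 => br (σ i) (σ (i + 1)) (σ (i + 2)))
    (fun i => ∑ u : Fin 3, if ![σ i, σ (i + 1), σ (i + 2)] u = l then 1 else 0)
    (w := wl l) (fun i _ => whom_br l _ _ _)
  have h4 : (∑ i : Fin 5, ∑ u : Fin 3, if ![σ i, σ (i + 1), σ (i + 2)] u = l then 1 else 0) = 3 := by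
    obtain ⟨l', rfl⟩ := σ.surjective l
    have h5 : ∀ i : Fin 5, (∑ u : Fin 3, if ![σ i, σ (i + 1), σ (i + 2)] u = σ l' then 1 else 0) =
        ∑ u : Fin 3, if ![i, i + 1, i + 2] u = l' then 1 else 0 := by
      intro i
      refine Finset.sum_congr rfl fun u _ => ?_
      have h6 : ![σ i, σ (i + 1), σ (i + 2)] u = σ (![i, i + 1, i + 2] u) := by
        fin_cases u <;> rfl
      rw [h6]
      exact if_congr σ.injective.eq_iff rfl rfl
    rw [Finset.sum_congr rfl fun i _ => h5 i]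
    exact sum_pent l'
  rw [h4] at h
  exact h

lemma whom_Gp (l : Fin 5) : IsWeightedHomogeneous (wl l) Gp 6 :=
  IsWeightedHomogeneous.sum _ _ _ fun σ _ => whom_pow (whom_Wp l σ) 2

lemma whom_Kp (l : Fin 5) : IsWeightedHomogeneous (wl l) Kp 18 :=
  IsWeightedHomogeneous.sum _ _ _ fun σ _ => whom_pow (whom_Wp l σ) 6

lemma sum_emb_perm (σ : Equiv.Perm (Fin 5)) (l : Fin 5) :
    (∑ e : Fin 3 ↪ Fin 5, ∑ u : Fin 3, if e u = σ l then 1 else 0) =
      ∑ e : Fin 3 ↪ Fin 5, ∑ u : Fin 3, if e u = l then 1 else 0 := by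
  symm
  refine Fintype.sum_equiv (Equiv.embeddingCongr (Equiv.refl (Fin 3)) σ) _ _ fun e => ?_
  refine Finset.sum_congr rfl fun u _ => ?_
  exact if_congr σ.injective.eq_iff.symm rfl rfl

lemma sum_emb' (l : Fin 5) :
    (∑ e : Fin 3 ↪ Fin 5, ∑ u : Fin 3, if e u = l then 1 else 0) = 36 := by
  have h1 : ∑ l : Fin 5, (∑ e : Fin 3 ↪ Fin 5, ∑ u : Fin 3, if e u = l then 1 else 0) = 180 := by
    rw [Finset.sum_comm]
    have h2 : ∀ e : Fin 3 ↪ Fin 5, (∑ l : Fin 5, ∑ u : Fin 3, if e u = l then 1 else 0) = 3 := by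
      intro e
      rw [Finset.sum_comm]
      simp
    rw [Finset.sum_congr rfl fun e _ => h2 e, Finset.sum_const, Finset.card_univ,
      Fintype.card_embedding_eq]
    simp [Nat.descFactorial]
  have h3 : ∀ l' : Fin 5, (∑ e : Fin 3 ↪ Fin 5, ∑ u : Fin 3, if e u = l' then 1 else 0) =
      ∑ e : Fin 3 ↪ Fin 5, ∑ u : Fin 3, if e u = l then 1 else 0 := by
    intro l'
    have := sum_emb_perm (Equiv.swap l l') l
    rwa [Equiv.swap_apply_left] at this
  rw [Finset.sum_congr rfl fun l' _ => h3 l', Finset.sum_const, Finset.card_univ, Fintype.card_fin,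
    smul_eq_mul] at h1
  omega

lemma sum_emb (l : Fin 5) :
    (∑ e : Fin 3 ↪ Fin 5, ∑ u : Fin 3, if ![e 0, e 1, e 2] u = l then 1 else 0) = 36 := by
  rw [← sum_emb' l]
  refine Finset.sum_congr rfl fun e _ => Finset.sum_congr rfl fun u _ => ?_
  have h6 : ![e 0, e 1, e 2] u = e u := by fin_cases u <;> rfl
  rw [h6]

lemma whom_Dp (l : Fin 5) : IsWeightedHomogeneous (wl l) Dp 36 := by
  have h := IsWeightedHomogeneous.prod (Finset.univ : Finset (Fin 3 ↪ Fin 5))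
    (fun e : Fin 3 ↪ Fin 5 => br (e 0) (e 1) (e 2))
    (fun e => ∑ u : Fin 3, if ![e 0, e 1, e 2] u = l then 1 else 0)
    (w := wl l) (fun i _ => whom_br l _ _ _)
  rw [sum_emb] at h
  exact h

/-- `Semi` in terms of `evp`. -/
lemma semi_iff {r : ℕ} (lam : Fin 3 → ℕ) (Q : MvPolynomial (Fin r × Fin 3) ℂ) :
    Semi lam Q ↔ ∀ g : Matrix (Fin 3) (Fin 3) ℂ, IsBorel g → ∀ p : Fin r → Pt,
      evp Q (fun l => Matrix.vecMul (p l) g) = (∏ i, g i i ^ lam i) * evp Q p := Iff.rfl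

lemma evp_mul {r : ℕ} (P Q : MvPolynomial (Fin r × Fin 3) ℂ) (p : Fin r → Pt) :
    evp (P * Q) p = evp P p * evp Q p := map_mul _ _ _

lemma evp_pow {r : ℕ} (P : MvPolynomial (Fin r × Fin 3) ℂ) (n : ℕ) (p : Fin r → Pt) :
    evp (P ^ n) p = evp P p ^ n := map_pow _ _ _

lemma evp_prod {r : ℕ} {ι : Type*} (s : Finset ι) (P : ι → MvPolynomial (Fin r × Fin 3) ℂ)
    (p : Fin r → Pt) : evp (∏ i ∈ s, P i) p = ∏ i ∈ s, evp (P i) p := map_prod _ _ _

lemma evp_sum {r : ℕ} {ι : Type*} (s : Finset ι) (P : ι → MvPolynomial (Fin r × Fin 3) ℂ)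
    (p : Fin r → Pt) : evp (∑ i ∈ s, P i) p = ∑ i ∈ s, evp (P i) p := map_sum _ _ _

lemma evp_br {r : ℕ} (i j k : Fin r) (p : Fin r → Pt) :
    evp (br i j k) p = Matrix.det (Matrix.of fun u s : Fin 3 => p (![i, j, k] u) s) := by
  unfold evp br
  rw [RingHom.map_det]
  congr 1
  ext u s
  simp [RingHom.mapMatrix_apply]

lemma semi_br {r : ℕ} (i j k : Fin r) : Semi (fun _ => 1) (br i j k) := by
  rw [semi_iff]
  intro g hg p
  rw [evp_br, evp_br]
  have h1 : (Matrix.of fun u s : Fin 3 => (fun l => Matrix.vecMul (p l) g) (![i, j, k] u) s) =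
      (Matrix.of fun u s : Fin 3 => p (![i, j, k] u) s) * g := by
    ext u s
    rw [Matrix.mul_apply]
    simp only [Matrix.of_apply, Matrix.vecMul, dotProduct]
  rw [h1, Matrix.det_mul, Matrix.det_of_isUpperTriangular (M := g) (fun i j h => hg.1 i j h), mul_comm]
  simp

lemma semi_mul {r : ℕ} {l₁ l₂ : Fin 3 → ℕ} {P Q : MvPolynomial (Fin r × Fin 3) ℂ}
    (h₁ : Semi l₁ P) (h₂ : Semi l₂ Q) : Semi (fun i => l₁ i + l₂ i) (P * Q) := by
  rw [semi_iff] at *
  intro g hg p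
  rw [evp_mul, evp_mul, h₁ g hg p, h₂ g hg p]
  rw [Finset.prod_congr rfl fun i _ => pow_add (g i i) (l₁ i) (l₂ i), Finset.prod_mul_distrib]
  ring

lemma semi_pow {r : ℕ} {l : Fin 3 → ℕ} {P : MvPolynomial (Fin r × Fin 3) ℂ}
    (h : Semi l P) (n : ℕ) : Semi (fun i => n * l i) (P ^ n) := by
  rw [semi_iff] at *
  intro g hg p
  rw [evp_pow, evp_pow, h g hg p, mul_pow, ← Finset.prod_pow]
  congr 1
  exact Finset.prod_congr rfl fun i _ => by rw [← pow_mul, mul_comm (l i) n]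

lemma semi_prod {r : ℕ} {ι : Type*} (s : Finset ι) (P : ι → MvPolynomial (Fin r × Fin 3) ℂ)
    (c : ℕ) (h : ∀ i, Semi (fun _ => c) (P i)) : Semi (fun _ => s.card * c) (∏ i ∈ s, P i) := by
  rw [semi_iff]
  intro g hg p
  rw [evp_prod, evp_prod, Finset.prod_congr rfl fun i _ => (semi_iff _ _).1 (h i) g hg p,
    Finset.prod_mul_distrib, Finset.prod_const, ← Finset.prod_pow]
  congr 1
  exact Finset.prod_congr rfl fun i _ => by rw [← pow_mul, mul_comm c]

lemma semi_sum {r : ℕ} {ι : Type*} (s : Finset ι) (P : ι → MvPolynomial (Fin r × Fin 3) ℂ)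
    (l : Fin 3 → ℕ) (h : ∀ i, Semi l (P i)) : Semi l (∑ i ∈ s, P i) := by
  rw [semi_iff]
  intro g hg p
  rw [evp_sum, evp_sum, Finset.mul_sum]
  exact Finset.sum_congr rfl fun i _ => (h i) g hg p

lemma semi_Wp (σ : Equiv.Perm (Fin 5)) : Semi (fun _ => 5) (Wp σ) := by
  have := semi_prod (Finset.univ : Finset (Fin 5))
    (fun i => br (σ i) (σ (i + 1)) (σ (i + 2))) 1 (fun i => semi_br _ _ _)
  rw [Finset.card_univ, Fintype.card_fin] at this
  exact this

lemma semi_Gp : Semi (fun _ => 10) Gp :=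
  semi_sum _ _ _ fun σ => semi_pow (semi_Wp σ) 2

lemma semi_Kp : Semi (fun _ => 30) Kp :=
  semi_sum _ _ _ fun σ => semi_pow (semi_Wp σ) 6

lemma semi_Dp : Semi (fun _ => 60) Dp := by
  have h := semi_prod (Finset.univ : Finset (Fin 3 ↪ Fin 5))
    (fun e => br (e 0) (e 1) (e 2)) 1 (fun i => semi_br _ _ _)
  have hc : (Finset.univ : Finset (Fin 3 ↪ Fin 5)).card = 60 := by
    rw [Finset.card_univ, Fintype.card_embedding_eq]
    simp [Nat.descFactorial]
  rw [hc] at h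
  exact h

lemma evp_br_perm {r : ℕ} (σ : Equiv.Perm (Fin r)) (i j k : Fin r) (p : Fin r → Pt) :
    evp (br i j k) (fun l => p (σ l)) = evp (br (σ i) (σ j) (σ k)) p := by
  rw [evp_br, evp_br]
  congr 1
  ext u s
  fin_cases u <;> rfl

lemma evp_Wp_perm (σ τ : Equiv.Perm (Fin 5)) (p : Fin 5 → Pt) :
    evp (Wp τ) (fun l => p (σ l)) = evp (Wp (σ * τ)) p := by
  unfold Wp
  rw [evp_prod, evp_prod]
  exact Finset.prod_congr rfl fun i _ => evp_br_perm σ _ _ _ p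

lemma evp_Gp_perm (σ : Equiv.Perm (Fin 5)) (p : Fin 5 → Pt) :
    evp Gp (fun l => p (σ l)) = evp Gp p := by
  unfold Gp
  rw [evp_sum, evp_sum]
  refine Fintype.sum_equiv (Equiv.mulLeft σ) _ _ fun τ => ?_
  rw [evp_pow, evp_pow, evp_Wp_perm, Equiv.coe_mulLeft]

lemma evp_Kp_perm (σ : Equiv.Perm (Fin 5)) (p : Fin 5 → Pt) :
    evp Kp (fun l => p (σ l)) = evp Kp p := by
  unfold Kp
  rw [evp_sum, evp_sum]
  refine Fintype.sum_equiv (Equiv.mulLeft σ) _ _ fun τ => ?_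
  rw [evp_pow, evp_pow, evp_Wp_perm, Equiv.coe_mulLeft]

lemma evp_Dp_perm (σ : Equiv.Perm (Fin 5)) (p : Fin 5 → Pt) :
    evp Dp (fun l => p (σ l)) = evp Dp p := by
  unfold Dp
  rw [evp_prod, evp_prod]
  refine Fintype.prod_equiv (Equiv.embeddingCongr (Equiv.refl (Fin 3)) σ) _ _ fun e => ?_
  rw [evp_br_perm]
  rfl

lemma evp_Dp_zero (p : Fin 5 → Pt) {i j : Fin 5} (hij : i ≠ j) (h : p i = p j) :
    evp Dp p = 0 := by
  have hex : ∀ i j : Fin 5, ∃ k : Fin 5, k ≠ i ∧ k ≠ j := by decide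
  obtain ⟨k, hki, hkj⟩ := hex i j
  have hinj : Function.Injective ![i, j, k] := by
    intro a b hab
    fin_cases a <;> fin_cases b <;> simp_all
  unfold Dp
  rw [evp_prod]
  refine Finset.prod_eq_zero (Finset.mem_univ (⟨![i, j, k], hinj⟩ : Fin 3 ↪ Fin 5)) ?_
  rw [evp_br]
  refine Matrix.det_zero_of_row_eq (i := 0) (j := 1) (by decide) ?_
  funext s
  change p i s = p j s
  rw [h]

end CRA1

open CRA1

/-- The degree of the corner family in each point. -/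
theorem FF_multi {N : ℕ} (t : Fin N × Fin N) : Multi (60 * N) 5 (FF N t) := by
  intro l
  have h := ((whom_pow (whom_Dp l) ((t.1 : ℕ) + 1)).mul (whom_pow (whom_Kp l) (t.2 : ℕ))).mul
    (whom_pow (whom_Gp l) (10 * N - 6 * ((t.1 : ℕ) + 1) - 3 * (t.2 : ℕ)))
  have h1 := t.1.2
  have h2 := t.2.2
  have e : ((t.1 : ℕ) + 1) * 36 + (t.2 : ℕ) * 18 +
      (10 * N - 6 * ((t.1 : ℕ) + 1) - 3 * (t.2 : ℕ)) * 6 = 60 * N := by omega
  rw [e] at h
  exact h

/-- The corner family is semi-invariant. -/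
theorem FF_semi {N : ℕ} (t : Fin N × Fin N) : Semi (fun _ => 100 * N) (FF N t) := by
  have h := semi_mul (semi_mul (semi_pow semi_Dp ((t.1 : ℕ) + 1)) (semi_pow semi_Kp (t.2 : ℕ)))
    (semi_pow semi_Gp (10 * N - 6 * ((t.1 : ℕ) + 1) - 3 * (t.2 : ℕ)))
  have h1 := t.1.2
  have h2 := t.2.2
  have e : ((t.1 : ℕ) + 1) * 60 + (t.2 : ℕ) * 30 +
      (10 * N - 6 * ((t.1 : ℕ) + 1) - 3 * (t.2 : ℕ)) * 10 = 100 * N := by omega
  simp only [e] at h
  exact h

/-- The corner family is symmetric. -/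
theorem FF_symm {N : ℕ} (t : Fin N × Fin N) (σ : Equiv.Perm (Fin 5)) (p : Fin 5 → Pt) :
    evp (FF N t) (fun l => p (σ l)) = evp (FF N t) p := by
  unfold FF
  rw [evp_mul, evp_mul, evp_mul, evp_mul, evp_pow, evp_pow, evp_pow, evp_pow, evp_pow, evp_pow,
    evp_Dp_perm, evp_Kp_perm, evp_Gp_perm]

/-- The corner family vanishes when two points coincide. -/
theorem FF_zero {N : ℕ} (t : Fin N × Fin N) (p : Fin 5 → Pt) {i j : Fin 5} (hij : i ≠ j)
    (h : p i = p j) : evp (FF N t) p = 0 := by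
  unfold FF
  rw [evp_mul, evp_mul, evp_pow, evp_Dp_zero p hij h, zero_pow (Nat.succ_ne_zero _), zero_mul,
    zero_mul]

end Vale.Agent.P181.H553
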