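import Vale.Agent.P181.R2.H553.CDefs
import Mathlib.Algebra.MvPolynomial.Funext
import Mathlib.FieldTheory.IsAlgClosed.Basic

/-!
The corner family is linearly independent at the frame.
-/

set_option autoImplicit false

open scoped TensorProduct
open MvPolynomial

namespace Vale.Agent.P181.H553

open Vale.Agent.P181 Vale.Agent.P181.H280 Vale.Agent.P181.H179

namespace CRA2

section abstract_part

/-- One variable: `k` is not a multiple of `g ^ 3`. -/
lemma one_var_aux {B : Type*} [CommRing B] [IsDomain B] [Algebra ℂ B] (F : Type*) [Field F]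
    [Algebra B F] [IsFractionRing B F] [Algebra ℂ F] [IsScalarTower ℂ B F] (k g : B) (hg : g ≠ 0)
    (hk : ∀ ρ : ℂ, k ≠ ρ • g ^ 3) {N M : ℕ} (hM : 3 * (N - 1) ≤ M) (c : Fin N → ℂ)
    (h : ∑ j : Fin N, c j • (k ^ (j : ℕ) * g ^ (M - 3 * (j : ℕ))) = 0) : c = 0 := by
  by_contra hc
  have hinj : Function.Injective (algebraMap B F) := IsFractionRing.injective B F
  have hgF : algebraMap B F g ≠ 0 := by
    rw [Ne, ← map_zero (algebraMap B F)]
    exact fun hh => hg (hinj hh)
  set u : F := algebraMap B F k / algebraMap B F g ^ 3 with hu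
  let q : Polynomial ℂ := ∑ j : Fin N, Polynomial.monomial (j : ℕ) (c j)
  have hq0 : q ≠ 0 := by
    intro hq
    apply hc
    funext j
    have h1 : q.coeff (j : ℕ) = c j := by
      simp only [q, Polynomial.finsetSum_coeff, Polynomial.coeff_monomial]
      rw [Finset.sum_eq_single j]
      · simp
      · intro b _ hb
        rw [if_neg]
        exact fun hh => hb (Fin.ext hh)
      · intro hh
        exact absurd (Finset.mem_univ j) hh
    rw [← h1, hq]
    simp
  have hq : Polynomial.aeval u q = 0 := by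
    have h2 : algebraMap B F g ^ M * Polynomial.aeval u q = 0 := by
      have h3 := congrArg (algebraMap B F) h
      rw [map_zero, map_sum] at h3
      rw [← h3]
      simp only [q]
      rw [map_sum, Finset.mul_sum]
      refine Finset.sum_congr rfl fun j _ => ?_
      have hj : 3 * (j : ℕ) ≤ M := by
        have := j.2
        omega
      rw [Polynomial.aeval_monomial, Algebra.smul_def, map_mul, map_mul, map_pow, map_pow,
        ← IsScalarTower.algebraMap_apply ℂ B F, hu, div_pow, ← pow_mul]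
      have h4 : algebraMap B F g ^ M = algebraMap B F g ^ (M - 3 * (j : ℕ)) *
          algebraMap B F g ^ (3 * (j : ℕ)) := by
        rw [← pow_add]
        congr 1
        omega
      rw [h4]
      have h5 : algebraMap B F g ^ (3 * (j : ℕ)) ≠ 0 := pow_ne_zero _ hgF
      field_simp
    rcases mul_eq_zero.1 h2 with h6 | h6
    · exact absurd h6 (pow_ne_zero _ hgF)
    · exact h6
  have halg : IsAlgebraic ℂ u := ⟨q, hq0, hq⟩
  have hint : IsIntegral ℂ u := halg.isIntegral
  have hdeg := IsAlgClosed.degree_eq_one_of_irreducible ℂ (minpoly.irreducible hint)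
  obtain ⟨ρ, hρ⟩ := minpoly.mem_range_of_degree_eq_one ℂ u hdeg
  apply hk ρ
  apply hinj
  rw [Algebra.smul_def, map_mul, map_pow, ← IsScalarTower.algebraMap_apply ℂ B F]
  have h7 : (algebraMap ℂ F ρ) = algebraMap B F k / algebraMap B F g ^ 3 := hρ
  rw [h7]
  field_simp

lemma one_var {B : Type*} [CommRing B] [IsDomain B] [Algebra ℂ B] (k g : B) (hg : g ≠ 0)
    (hk : ∀ ρ : ℂ, k ≠ ρ • g ^ 3) {N M : ℕ} (hM : 3 * (N - 1) ≤ M) (c : Fin N → ℂ)
    (h : ∑ j : Fin N, c j • (k ^ (j : ℕ) * g ^ (M - 3 * (j : ℕ))) = 0) : c = 0 :=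
  one_var_aux (FractionRing B) k g hg hk hM c h

/-- The two variable statement. -/
lemma two_var {A B : Type*} [CommRing A] [IsDomain A] [Algebra ℂ A] [CommRing B] [IsDomain B]
    [Algebra ℂ B] (ψ : A →ₐ[ℂ] B) (D K G : A) (hD : D ≠ 0) (hψD : ψ D = 0) (hG : ψ G ≠ 0)
    (hK : ∀ ρ : ℂ, ψ K ≠ ρ • ψ G ^ 3) {N : ℕ} (c : Fin N × Fin N → ℂ)
    (h : ∑ t : Fin N × Fin N, c t • (D ^ ((t.1 : ℕ) + 1) * K ^ (t.2 : ℕ) *
      G ^ (10 * N - 6 * ((t.1 : ℕ) + 1) - 3 * (t.2 : ℕ))) = 0) : c = 0 := by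
  have key : ∀ n : ℕ, ∀ t : Fin N × Fin N, (t.1 : ℕ) = n → c t = 0 := by
    intro n
    induction n using Nat.strong_induction_on with
    | _ n ih =>
      intro t₀ ht₀
      have hsum : D ^ (n + 1) * ∑ t : Fin N × Fin N, (if (t.1 : ℕ) < n then 0 else
          c t • (D ^ ((t.1 : ℕ) - n) * K ^ (t.2 : ℕ) *
            G ^ (10 * N - 6 * ((t.1 : ℕ) + 1) - 3 * (t.2 : ℕ)))) = 0 := by
        refine Eq.trans ?_ h
        rw [Finset.mul_sum]
        refine Finset.sum_congr rfl fun t _ => ?_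
        split_ifs with h1
        · rw [ih _ h1 t rfl, zero_smul, mul_zero]
        · rw [mul_smul_comm]
          congr 1
          have e : D ^ ((t.1 : ℕ) + 1) = D ^ (n + 1) * D ^ ((t.1 : ℕ) - n) := by
            rw [← pow_add]
            congr 1
            omega
          rw [e]
          ring
      have h2 := (mul_eq_zero.1 hsum).resolve_left (pow_ne_zero _ hD)
      have h3 := congrArg ψ h2
      rw [map_zero, map_sum, Fintype.sum_prod_type, Finset.sum_eq_single t₀.1] at h3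
      · have h4 : ∑ j : Fin N, c (t₀.1, j) • (ψ K ^ (j : ℕ) *
            ψ G ^ (10 * N - 6 * (n + 1) - 3 * (j : ℕ))) = 0 := by
          refine Eq.trans ?_ h3
          refine Finset.sum_congr rfl fun j _ => ?_
          have h5 : ¬ ((t₀.1 : ℕ) < n) := by omega
          rw [if_neg h5, map_smul, map_mul, map_mul, map_pow, map_pow, map_pow]
          simp only [ht₀, Nat.sub_self, pow_zero, one_mul]
        have h7 := t₀.1.2
        have h8 := one_var (ψ K) (ψ G) hG hK (M := 10 * N - 6 * (n + 1)) (by omega)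
          (fun j => c (t₀.1, j)) h4
        have h9 := congrFun h8 t₀.2
        exact h9
      · intro i _ hi
        refine Finset.sum_eq_zero fun j _ => ?_
        split_ifs with h5
        · exact map_zero ψ
        · have h6 : (i : ℕ) - n ≠ 0 := by
            intro h7
            apply hi
            apply Fin.ext
            simp only at h5
            omega
          rw [map_smul, map_mul, map_mul, map_pow, hψD, zero_pow h6, zero_mul, zero_mul, smul_zero]
      · intro hh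
        exact absurd (Finset.mem_univ _) hh
  funext t
  exact key _ t rfl

end abstract_part

section eval_part

lemma evp_pow {r : ℕ} (P : MvPolynomial (Fin r × Fin 3) ℂ) (n : ℕ) (p : Fin r → Pt) :
    evp (P ^ n) p = evp P p ^ n := map_pow _ _ _

lemma evp_prod {r : ℕ} {ι : Type*} (s : Finset ι) (P : ι → MvPolynomial (Fin r × Fin 3) ℂ)
    (p : Fin r → Pt) : evp (∏ i ∈ s, P i) p = ∏ i ∈ s, evp (P i) p := map_prod _ _ _

lemma evp_sum {r : ℕ} {ι : Type*} (s : Finset ι) (P : ι → MvPolynomial (Fin r × Fin 3) ℂ)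
    (p : Fin r → Pt) : evp (∑ i ∈ s, P i) p = ∑ i ∈ s, evp (P i) p := map_sum _ _ _

lemma evp_br {r : ℕ} (i j k : Fin r) (p : Fin r → Pt) :
    evp (br i j k) p = Matrix.det (Matrix.of fun u s : Fin 3 => p (![i, j, k] u) s) := by
  unfold evp br
  rw [RingHom.map_det]
  congr 1
  ext u s
  simp [RingHom.mapMatrix_apply]

/-- The bracket of integral points. -/
def brZ (P : Fin 5 → Fin 3 → ℤ) (i j k : Fin 5) : ℤ :=
  P i 0 * (P j 1 * P k 2 - P j 2 * P k 1) - P i 1 * (P j 0 * P k 2 - P j 2 * P k 0) +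
    P i 2 * (P j 0 * P k 1 - P j 1 * P k 0)

/-- The pentagon product of integral points. -/
def WZ (P : Fin 5 → Fin 3 → ℤ) (σ : Equiv.Perm (Fin 5)) : ℤ :=
  ∏ i : Fin 5, brZ P (σ i) (σ (i + 1)) (σ (i + 2))

lemma evp_br_int {P : Fin 5 → Fin 3 → ℤ} {p : Fin 5 → Pt} (h : ∀ l s, p l s = (P l s : ℂ))
    (i j k : Fin 5) : evp (br i j k) p = (brZ P i j k : ℂ) := by
  rw [evp_br, Matrix.det_fin_three]
  simp only [Matrix.of_apply, h, brZ]
  push_cast
  ring

lemma evp_Wp_int {P : Fin 5 → Fin 3 → ℤ} {p : Fin 5 → Pt} (h : ∀ l s, p l s = (P l s : ℂ))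
    (σ : Equiv.Perm (Fin 5)) : evp (Wp σ) p = (WZ P σ : ℂ) := by
  unfold Wp WZ
  rw [evp_prod]
  push_cast
  exact Finset.prod_congr rfl fun i _ => evp_br_int h _ _ _

lemma evp_Gp_int {P : Fin 5 → Fin 3 → ℤ} {p : Fin 5 → Pt} (h : ∀ l s, p l s = (P l s : ℂ)) :
    evp Gp p = ((∑ σ : Equiv.Perm (Fin 5), WZ P σ ^ 2 : ℤ) : ℂ) := by
  unfold Gp
  rw [evp_sum]
  push_cast
  exact Finset.sum_congr rfl fun σ _ => by rw [evp_pow, evp_Wp_int h]

lemma evp_Kp_int {P : Fin 5 → Fin 3 → ℤ} {p : Fin 5 → Pt} (h : ∀ l s, p l s = (P l s : ℂ)) :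
    evp Kp p = ((∑ σ : Equiv.Perm (Fin 5), WZ P σ ^ 6 : ℤ) : ℂ) := by
  unfold Kp
  rw [evp_sum]
  push_cast
  exact Finset.sum_congr rfl fun σ _ => by rw [evp_pow, evp_Wp_int h]

/-- The integral frame with a first point. -/
def PZ (x y z : ℤ) : Fin 5 → Fin 3 → ℤ :=
  ![![x, y, z], ![1, 0, 0], ![0, 1, 0], ![0, 0, 1], ![1, 1, 1]]

lemma five_int (x y z : ℤ) (l : Fin 5) (s : Fin 3) :
    five ![(x : ℂ), (y : ℂ), (z : ℂ)] l s = (PZ x y z l s : ℂ) := by
  refine Fin.cases ?_ (fun l' => ?_) l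
  · change (![(x : ℂ), (y : ℂ), (z : ℂ)] : Fin 3 → ℂ) s = _
    fin_cases s <;> simp [PZ]
  · change frame l' s = _
    fin_cases l' <;> fin_cases s <;> simp [frame, PZ]

lemma G0 : (∑ σ : Equiv.Perm (Fin 5), WZ (PZ 1 1 0) σ ^ 2) = 40 := by decide +kernel

lemma K0 : (∑ σ : Equiv.Perm (Fin 5), WZ (PZ 1 1 0) σ ^ 6) = 40 := by decide +kernel

lemma G2 : (∑ σ : Equiv.Perm (Fin 5), WZ (PZ 1 1 2) σ ^ 2) = 120 := by decide +kernel

lemma K2 : (∑ σ : Equiv.Perm (Fin 5), WZ (PZ 1 1 2) σ ^ 6) = 1320 := by decide +kernel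

lemma D123 : ∀ i j k : Fin 5, i ≠ j → i ≠ k → j ≠ k → brZ (PZ 1 2 3) i j k ≠ 0 := by
  decide +kernel

/-- Substitution of the frame. -/
noncomputable def phi : MvPolynomial (Fin 5 × Fin 3) ℂ →ₐ[ℂ] MvPolynomial (Fin 3) ℂ :=
  aeval (fun s => (Fin.cons (fun i => X i) (fun l i => C (frame l i)) :
    Fin 5 → Fin 3 → MvPolynomial (Fin 3) ℂ) s.1 s.2)

lemma eval_phi (Q : MvPolynomial (Fin 5 × Fin 3) ℂ) (p : Pt) :
    eval p (phi Q) = evp Q (five p) := by
  have h : ((eval p).comp (phi : MvPolynomial (Fin 5 × Fin 3) ℂ →+* MvPolynomial (Fin 3) ℂ)) =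
      eval (fun s : Fin 5 × Fin 3 => five p s.1 s.2) := by
    apply MvPolynomial.ringHom_ext
    · intro r
      simp [phi]
    · rintro ⟨l, i⟩
      simp only [phi, RingHom.comp_apply, RingHom.coe_coe, aeval_X, eval_X]
      refine Fin.cases ?_ (fun l' => ?_) l
      · simp [five]
      · simp [five]
  exact RingHom.congr_fun h Q

/-- Substitution of `(1, 1, z)`. -/
noncomputable def psi : MvPolynomial (Fin 3) ℂ →ₐ[ℂ] Polynomial ℂ :=
  aeval ![1, 1, Polynomial.X]

lemma eval_psi (Q : MvPolynomial (Fin 3) ℂ) (z : ℂ) :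
    (psi Q).eval z = eval ![1, 1, z] Q := by
  have h : ((Polynomial.evalRingHom z).comp (psi : MvPolynomial (Fin 3) ℂ →+* Polynomial ℂ)) =
      eval ![1, 1, z] := by
    apply MvPolynomial.ringHom_ext
    · intro r
      simp [psi]
    · intro i
      fin_cases i <;> simp [psi]
  exact RingHom.congr_fun h Q

end eval_part

end CRA2

open CRA2

/-- ROW A2. On `(1, 1, z)` one has `D = 0` and `K / G ^ 3` is not constant. -/
theorem FF_indep (N : ℕ) :
    LinearIndependent ℂ (fun t : Fin N × Fin N => fun p : Pt => evp (FF N t) (five p)) := by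
  rw [Fintype.linearIndependent_iff]
  intro c hc
  have h1 : ∑ t : Fin N × Fin N, c t • (phi Dp ^ ((t.1 : ℕ) + 1) * phi Kp ^ (t.2 : ℕ) *
      phi Gp ^ (10 * N - 6 * ((t.1 : ℕ) + 1) - 3 * (t.2 : ℕ))) = 0 := by
    apply MvPolynomial.funext
    intro p
    rw [map_zero, map_sum]
    have h2 := congrFun hc p
    rw [Finset.sum_apply, Pi.zero_apply] at h2
    rw [← h2]
    refine Finset.sum_congr rfl fun t _ => ?_
    rw [Pi.smul_apply, smul_eval, smul_eq_mul, ← eval_phi]
    unfold FF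
    rw [map_mul phi, map_mul phi, map_pow phi, map_pow phi, map_pow phi]
  have hev : ∀ (Q : MvPolynomial (Fin 5 × Fin 3) ℂ) (z : ℂ),
      (psi (phi Q)).eval z = evp Q (five ![1, 1, z]) := fun Q z => by
    rw [eval_psi, eval_phi]
  have hG0 : evp Gp (five ![1, 1, 0]) = 40 := by
    have := evp_Gp_int (five_int 1 1 0)
    rw [G0] at this
    simpa using this
  have hK0 : evp Kp (five ![1, 1, 0]) = 40 := by
    have := evp_Kp_int (five_int 1 1 0)
    rw [K0] at this
    simpa using this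
  have hG2 : evp Gp (five ![1, 1, 2]) = 120 := by
    have := evp_Gp_int (five_int 1 1 2)
    rw [G2] at this
    simpa using this
  have hK2 : evp Kp (five ![1, 1, 2]) = 1320 := by
    have := evp_Kp_int (five_int 1 1 2)
    rw [K2] at this
    simpa using this
  have hD : phi Dp ≠ 0 := by
    intro h0
    have h2 := eval_phi Dp ![((1 : ℤ) : ℂ), ((2 : ℤ) : ℂ), ((3 : ℤ) : ℂ)]
    rw [h0, map_zero] at h2
    unfold Dp at h2
    rw [evp_prod] at h2
    obtain ⟨e, -, he⟩ := Finset.prod_eq_zero_iff.1 h2.symm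
    rw [evp_br_int (five_int 1 2 3)] at he
    have h01 : e 0 ≠ e 1 := fun h => absurd (e.injective h) (by decide)
    have h02 : e 0 ≠ e 2 := fun h => absurd (e.injective h) (by decide)
    have h12 : e 1 ≠ e 2 := fun h => absurd (e.injective h) (by decide)
    exact D123 _ _ _ h01 h02 h12 (by exact_mod_cast he)
  have hψD : psi (phi Dp) = 0 := by
    apply Polynomial.funext
    intro z
    rw [hev, Polynomial.eval_zero]
    unfold Dp
    rw [evp_prod]
    have hinj : Function.Injective ![(0 : Fin 5), 3, 4] := by decide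
    refine Finset.prod_eq_zero (Finset.mem_univ (⟨![0, 3, 4], hinj⟩ : Fin 3 ↪ Fin 5)) ?_
    have e0 : five ![1, 1, z] 0 = ![1, 1, z] := rfl
    have e3 : five ![1, 1, z] 3 = ![0, 0, 1] := rfl
    have e4 : five ![1, 1, z] 4 = ![1, 1, 1] := rfl
    rw [evp_br, Matrix.det_fin_three]
    simp [e0, e3, e4]
  have hG : psi (phi Gp) ≠ 0 := by
    intro h0
    have h2 := hev Gp 0
    rw [h0, hG0, Polynomial.eval_zero] at h2
    norm_num at h2
  have hK : ∀ ρ : ℂ, psi (phi Kp) ≠ ρ • psi (phi Gp) ^ 3 := by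
    intro ρ h0
    have h2 := hev Kp 0
    have h3 := hev Kp 2
    rw [h0, Polynomial.eval_smul, Polynomial.eval_pow, hev, hG0, hK0, smul_eq_mul] at h2
    rw [h0, Polynomial.eval_smul, Polynomial.eval_pow, hev, hG2, hK2, smul_eq_mul] at h3
    have h4 : ρ = 1 / 1600 := by linear_combination h2 / 64000
    rw [h4] at h3
    norm_num at h3
  have h5 := two_var psi (phi Dp) (phi Kp) (phi Gp) hD hψD hG hK c h1
  exact fun t => congrFun h5 t

end Vale.Agent.P181.H553
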