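import Vale.Agent.P181.R2.H553.Defs

/-!
Rows 4c and 4d of the three-row bulk: the bracket polynomials `[123]^q` and `[12]^2[13]` on three
points of the dual space, their degrees, their behaviour under the upper triangular matrices, and a
measure with nonzero integral.
-/

set_option autoImplicit false

open MvPolynomial

namespace Vale.Agent.P181.H553

open Vale.Agent.P181 Vale.Agent.P181.H280 Vale.Agent.P181.H179

namespace H330

/-- The coordinate `i` of the point `l`. -/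
noncomputable def X3 (l i : Fin 3) : MvPolynomial (Fin 3 × Fin 3) ℂ := X (l, i)

/-- The weight of the point `l`. -/
def wt (l : Fin 3) : Fin 3 × Fin 3 → ℕ := fun s => if s.1 = l then 1 else 0

theorem hX (l l' i : Fin 3) :
    IsWeightedHomogeneous (wt l) (X3 l' i) (if l' = l then 1 else 0) :=
  isWeightedHomogeneous_X _ _ _

theorem wt_sum (l : Fin 3) : (if (0 : Fin 3) = l then 1 else 0) +
    (if (1 : Fin 3) = l then 1 else 0) + (if (2 : Fin 3) = l then 1 else 0) = 1 := by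
  revert l; decide

theorem mono3 (l i j k : Fin 3) :
    IsWeightedHomogeneous (wt l) (X3 0 i * X3 1 j * X3 2 k) 1 := by
  have h := ((hX l 0 i).mul (hX l 1 j)).mul (hX l 2 k)
  rwa [wt_sum l] at h

/-- `[123]`. -/
noncomputable def det3 : MvPolynomial (Fin 3 × Fin 3) ℂ :=
  X3 0 0 * X3 1 1 * X3 2 2 - X3 0 0 * X3 1 2 * X3 2 1 - X3 0 1 * X3 1 0 * X3 2 2
    + X3 0 1 * X3 1 2 * X3 2 0 + X3 0 2 * X3 1 0 * X3 2 1 - X3 0 2 * X3 1 1 * X3 2 0

theorem det3_hom (l : Fin 3) : IsWeightedHomogeneous (wt l) det3 1 :=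
  (((((mono3 l 0 1 2).sub (mono3 l 0 2 1)).sub (mono3 l 1 0 2)).add (mono3 l 1 2 0)).add
    (mono3 l 2 0 1)).sub (mono3 l 2 1 0)

/-- `[123]^q` times the powers of the first coordinates. -/
noncomputable def Q3 (a q : ℕ) : MvPolynomial (Fin 3 × Fin 3) ℂ :=
  det3 ^ q * (X3 0 0 * X3 1 0 * X3 2 0) ^ (a - q)

theorem Q3_multi {a q : ℕ} (hqa : q ≤ a) : Multi a 3 (Q3 a q) := by
  intro l
  have h := ((det3_hom l).pow q).mul ((mono3 l 0 0 0).pow (a - q))
  have e : q • 1 + (a - q) • 1 = a := by simp; omega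
  rw [e] at h
  exact h

theorem eval_X3 (v : Fin 3 × Fin 3 → ℂ) (l i : Fin 3) : eval v (X3 l i) = v (l, i) := by
  simp [X3]

theorem Q3_semi {a q : ℕ} (hqa : q ≤ a) : Semi ![3 * a - 2 * q, q, q] (Q3 a q) := by
  intro g hg p
  obtain ⟨b, rfl⟩ := Nat.exists_eq_add_of_le hqa
  have h10 : g 1 0 = 0 := hg.1 1 0 (by decide)
  have h20 : g 2 0 = 0 := hg.1 2 0 (by decide)
  have h21 : g 2 1 = 0 := hg.1 2 1 (by decide)
  have e1 : 3 * (q + b) - 2 * q = q + 3 * b := by omega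
  have e2 : q + b - q = b := by omega
  have hv0 : ∀ l, Matrix.vecMul (p l) g 0 = p l 0 * g 0 0 := by
    intro l
    simp [Matrix.vecMul, dotProduct, Fin.sum_univ_three, h10, h20]
  have hv1 : ∀ l, Matrix.vecMul (p l) g 1 = p l 0 * g 0 1 + p l 1 * g 1 1 := by
    intro l
    simp [Matrix.vecMul, dotProduct, Fin.sum_univ_three, h21]
  have hv2 : ∀ l, Matrix.vecMul (p l) g 2 = p l 0 * g 0 2 + p l 1 * g 1 2 + p l 2 * g 2 2 := by
    intro l
    simp [Matrix.vecMul, dotProduct, Fin.sum_univ_three]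
  simp only [Q3, det3, map_mul, map_pow, map_sub, map_add, eval_X3, e2, hv0, hv1, hv2,
    Fin.prod_univ_three, Matrix.cons_val_zero, Matrix.cons_val_one, Matrix.cons_val, e1]
  have key : ∀ (D D' : ℂ), D' = (g 0 0 * g 1 1 * g 2 2) * D →
      D' ^ q * (p 0 0 * g 0 0 * (p 1 0 * g 0 0) * (p 2 0 * g 0 0)) ^ b =
        g 0 0 ^ (q + 3 * b) * g 1 1 ^ q * g 2 2 ^ q * (D ^ q * (p 0 0 * p 1 0 * p 2 0) ^ b) := by
    intro D D' h
    rw [h, pow_add, pow_mul, mul_pow, mul_pow, mul_pow]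
    have : p 0 0 * g 0 0 * (p 1 0 * g 0 0) * (p 2 0 * g 0 0) =
        g 0 0 ^ 3 * (p 0 0 * p 1 0 * p 2 0) := by ring
    rw [this, mul_pow]
    ring
  apply key
  ring

/-- A sum over a finite set of real points is not zero if the integrand is nonnegative there and
positive once. -/
theorem integ_ne_zero {r : ℕ} (c : Meas) (f : (Fin r → Pt) → ℂ)
    (hc : ∀ x ∈ c.support, 0 ≤ (c x).re ∧ (c x).im = 0)
    (hf : ∀ p : Fin r → Pt, (∀ l, p l ∈ c.support) → 0 ≤ (f p).re ∧ (f p).im = 0)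
    (p₀ : Fin r → Pt) (hp₀ : ∀ l, p₀ l ∈ c.support) (h₀ : (f p₀) ≠ 0) :
    integ c f ≠ 0 := by
  have hprod : ∀ p : Fin r → Pt, (∀ l, p l ∈ c.support) →
      ∃ t : ℝ, 0 < t ∧ (∏ l, c (p l)) = (t : ℂ) := by
    intro p hp
    refine ⟨∏ l, (c (p l)).re, Finset.prod_pos ?_, ?_⟩
    · intro l _
      obtain ⟨h1, h2⟩ := hc _ (hp l)
      rcases h1.lt_or_eq with h | h
      · exact h
      · exfalso
        exact (Finsupp.mem_support_iff.1 (hp l)) (Complex.ext h.symm h2)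
    · rw [Complex.ofReal_prod]
      refine Finset.prod_congr rfl fun l _ => ?_
      obtain ⟨h1, h2⟩ := hc _ (hp l)
      exact Complex.ext (by simp) (by simp [h2])
  intro h
  have hre : (integ c f).re = 0 := by rw [h]; rfl
  rw [integ, Complex.re_sum] at hre
  have hnn : ∀ p ∈ Fintype.piFinset (fun _ : Fin r => c.support),
      0 ≤ ((∏ l, c (p l)) * f p).re := by
    intro p hp
    rw [Fintype.mem_piFinset] at hp
    obtain ⟨t, ht, e⟩ := hprod p hp
    rw [e, Complex.re_ofReal_mul]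
    exact mul_nonneg ht.le (hf p hp).1
  have hz := (Finset.sum_eq_zero_iff_of_nonneg hnn).1 hre p₀ (Fintype.mem_piFinset.2 hp₀)
  obtain ⟨t, ht, e⟩ := hprod p₀ hp₀
  rw [e, Complex.re_ofReal_mul] at hz
  obtain ⟨h1, h2⟩ := hf p₀ hp₀
  rcases mul_eq_zero.1 hz with h3 | h3
  · exact ht.ne' h3
  · exact h₀ (Complex.ext h3 h2)

theorem Q3_ne_zero {a q : ℕ} (hq : Even q) :
    (fun c : Meas => integ c (fun p => eval (fun s : Fin 3 × Fin 3 => p s.1 s.2) (Q3 a q))) ≠ 0 := by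
  intro h
  set P0 : Pt := ![1, 0, 0] with hP0
  set P1 : Pt := ![1, 1, 0] with hP1
  set P2 : Pt := ![1, 0, 1] with hP2
  set c : Meas := Finsupp.single P0 1 + Finsupp.single P1 1 + Finsupp.single P2 1 with hcdef
  have hcx : ∀ x, c x = (if P0 = x then 1 else 0) + (if P1 = x then 1 else 0) +
      (if P2 = x then 1 else 0) := by
    intro x
    simp only [hcdef, Finsupp.add_apply, Finsupp.single_apply]
  have hmem : ∀ x, x ∈ c.support → x = P0 ∨ x = P1 ∨ x = P2 := by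
    intro x hx
    rw [Finsupp.mem_support_iff, hcx] at hx
    by_contra hn
    push Not at hn
    apply hx
    rw [if_neg (Ne.symm hn.1), if_neg (Ne.symm hn.2.1), if_neg (Ne.symm hn.2.2)]
    norm_num
  have hm0 : P0 ∈ c.support := by
    rw [Finsupp.mem_support_iff, hcx, if_pos rfl]
    split_ifs <;> norm_num
  have hm1 : P1 ∈ c.support := by
    rw [Finsupp.mem_support_iff, hcx, if_pos (rfl : P1 = P1)]
    split_ifs <;> norm_num
  have hm2 : P2 ∈ c.support := by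
    rw [Finsupp.mem_support_iff, hcx, if_pos (rfl : P2 = P2)]
    split_ifs <;> norm_num
  have hreal : ∀ x ∈ c.support, ∃ y : Fin 3 → ℝ, y 0 = 1 ∧ ∀ i, x i = (y i : ℂ) := by
    intro x hx
    rcases hmem x hx with rfl | rfl | rfl
    · refine ⟨![1, 0, 0], rfl, fun i => ?_⟩
      fin_cases i <;> simp [hP0]
    · refine ⟨![1, 1, 0], rfl, fun i => ?_⟩
      fin_cases i <;> simp [hP1]
    · refine ⟨![1, 0, 1], rfl, fun i => ?_⟩
      fin_cases i <;> simp [hP2]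
  refine integ_ne_zero c _ ?_ ?_ ![P0, P1, P2] ?_ ?_ (congrFun h c)
  · intro x _
    rw [hcx]
    split_ifs <;> norm_num
  · intro p hp
    choose y hy0 hy using fun l => hreal (p l) (hp l)
    have e : eval (fun s : Fin 3 × Fin 3 => p s.1 s.2) (Q3 a q) =
        (((y 0 0 * y 1 1 * y 2 2 - y 0 0 * y 1 2 * y 2 1 - y 0 1 * y 1 0 * y 2 2
          + y 0 1 * y 1 2 * y 2 0 + y 0 2 * y 1 0 * y 2 1 - y 0 2 * y 1 1 * y 2 0) ^ q *
          (y 0 0 * y 1 0 * y 2 0) ^ (a - q) : ℝ) : ℂ) := by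
      simp only [Q3, det3, map_mul, map_pow, map_sub, map_add, eval_X3, hy]
      push_cast
      rfl
    rw [e]
    refine ⟨?_, Complex.ofReal_im _⟩
    rw [Complex.ofReal_re, hy0 0, hy0 1, hy0 2]
    exact mul_nonneg (hq.pow_nonneg _) (by norm_num)
  · intro l
    fin_cases l
    · exact hm0
    · exact hm1
    · exact hm2
  · simp [Q3, det3, eval_X3, hP0, hP1, hP2]

/-- ROW 4c, the polynomial. -/
theorem three_Q (a q : ℕ) (hq : Even q) (hqa : q ≤ a) :
    ∃ Q : MvPolynomial (Fin 3 × Fin 3) ℂ, Multi a 3 Q ∧ Semi ![3 * a - 2 * q, q, q] Q ∧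
      (fun c : Meas => integ c (fun p => eval (fun s : Fin 3 × Fin 3 => p s.1 s.2) Q)) ≠ 0 :=
  ⟨Q3 a q, Q3_multi hqa, Q3_semi hqa, Q3_ne_zero hq⟩

/-- `[12]`. -/
noncomputable def B12 : MvPolynomial (Fin 3 × Fin 3) ℂ := X3 0 0 * X3 1 1 - X3 0 1 * X3 1 0

/-- `[13]`. -/
noncomputable def B13 : MvPolynomial (Fin 3 × Fin 3) ℂ := X3 0 0 * X3 2 1 - X3 0 1 * X3 2 0

/-- `[12]^2[13]` times powers of the first coordinates. -/
noncomputable def Qo (a : ℕ) : MvPolynomial (Fin 3 × Fin 3) ℂ :=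
  B12 ^ 2 * B13 * X3 0 0 ^ (a - 3) * X3 1 0 ^ (a - 2) * X3 2 0 ^ (a - 1)

theorem B12_hom (l : Fin 3) : IsWeightedHomogeneous (wt l) B12
    ((if (0 : Fin 3) = l then 1 else 0) + (if (1 : Fin 3) = l then 1 else 0)) :=
  ((hX l 0 0).mul (hX l 1 1)).sub ((hX l 0 1).mul (hX l 1 0))

theorem B13_hom (l : Fin 3) : IsWeightedHomogeneous (wt l) B13
    ((if (0 : Fin 3) = l then 1 else 0) + (if (2 : Fin 3) = l then 1 else 0)) :=
  ((hX l 0 0).mul (hX l 2 1)).sub ((hX l 0 1).mul (hX l 2 0))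

theorem Qo_multi {a : ℕ} (ha : 3 ≤ a) : Multi a 3 (Qo a) := by
  intro l
  have h := (((((B12_hom l).pow 2).mul (B13_hom l)).mul ((hX l 0 0).pow (a - 3))).mul
    ((hX l 1 0).pow (a - 2))).mul ((hX l 2 0).pow (a - 1))
  have e : 2 • ((if (0 : Fin 3) = l then 1 else 0) + (if (1 : Fin 3) = l then 1 else 0)) +
      ((if (0 : Fin 3) = l then 1 else 0) + (if (2 : Fin 3) = l then 1 else 0)) +
      (a - 3) • (if (0 : Fin 3) = l then 1 else 0) + (a - 2) • (if (1 : Fin 3) = l then 1 else 0) +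
      (a - 1) • (if (2 : Fin 3) = l then 1 else 0) = a := by
    clear h
    fin_cases l <;> simp <;> omega
  rw [e] at h
  exact h

theorem Qo_semi {a : ℕ} (ha : 3 ≤ a) : Semi ![3 * a - 3, 3, 0] (Qo a) := by
  intro g hg p
  obtain ⟨b, rfl⟩ := Nat.exists_eq_add_of_le ha
  have h10 : g 1 0 = 0 := hg.1 1 0 (by decide)
  have h20 : g 2 0 = 0 := hg.1 2 0 (by decide)
  have h21 : g 2 1 = 0 := hg.1 2 1 (by decide)
  have e1 : 3 * (3 + b) - 3 = 6 + 3 * b := by omega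
  have e2 : 3 + b - 3 = b := by omega
  have e3 : 3 + b - 2 = b + 1 := by omega
  have e4 : 3 + b - 1 = b + 2 := by omega
  have hv0 : ∀ l, Matrix.vecMul (p l) g 0 = p l 0 * g 0 0 := by
    intro l
    simp [Matrix.vecMul, dotProduct, Fin.sum_univ_three, h10, h20]
  have hv1 : ∀ l, Matrix.vecMul (p l) g 1 = p l 0 * g 0 1 + p l 1 * g 1 1 := by
    intro l
    simp [Matrix.vecMul, dotProduct, Fin.sum_univ_three, h21]
  simp only [Qo, B12, B13, map_mul, map_pow, map_sub, eval_X3, e2, e3, e4, hv0, hv1,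
    Fin.prod_univ_three, Matrix.cons_val_zero, Matrix.cons_val_one, Matrix.cons_val, e1,
    mul_pow, pow_add, pow_mul]
  ring

theorem integ_prod (c : Meas) (G : Fin 3 → Pt → ℂ) :
    integ c (fun p : Fin 3 → Pt => G 0 (p 0) * G 1 (p 1) * G 2 (p 2)) =
      (∑ x ∈ c.support, c x * G 0 x) * (∑ x ∈ c.support, c x * G 1 x) *
        (∑ x ∈ c.support, c x * G 2 x) := by
  have h := Finset.prod_univ_sum (fun _ : Fin 3 => c.support) (fun l x => c x * G l x)
  rw [Fin.prod_univ_three] at h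
  rw [h, integ]
  refine Finset.sum_congr rfl fun p _ => ?_
  rw [Finset.prod_mul_distrib, Fin.prod_univ_three (fun i => G i (p i))]

theorem integ_add {r : ℕ} (c : Meas) (f g : (Fin r → Pt) → ℂ) :
    integ c (fun p => f p + g p) = integ c f + integ c g := by
  simp only [integ, mul_add, Finset.sum_add_distrib]

theorem integ_smul {r : ℕ} (c : Meas) (t : ℂ) (f : (Fin r → Pt) → ℂ) :
    integ c (fun p => t * f p) = t * integ c f := by
  simp only [integ, Finset.mul_sum]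
  exact Finset.sum_congr rfl fun p _ => by ring

/-- The functions `x^(a-k) y^k`. -/
noncomputable def Gk (a k : ℕ) (x : Pt) : ℂ := x 0 ^ (a - k) * x 1 ^ k

theorem Qo_eval {a : ℕ} (ha : 3 ≤ a) (p : Fin 3 → Pt) :
    eval (fun s : Fin 3 × Fin 3 => p s.1 s.2) (Qo a) =
      (Gk a 0 (p 0) * Gk a 2 (p 1) * Gk a 1 (p 2)) +
      ((-1) * (Gk a 1 (p 0) * Gk a 2 (p 1) * Gk a 0 (p 2)) +
      ((-2) * (Gk a 1 (p 0) * Gk a 1 (p 1) * Gk a 1 (p 2)) +
      (2 * (Gk a 2 (p 0) * Gk a 1 (p 1) * Gk a 0 (p 2)) +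
      ((Gk a 2 (p 0) * Gk a 0 (p 1) * Gk a 1 (p 2)) +
      ((-1) * (Gk a 3 (p 0) * Gk a 0 (p 1) * Gk a 0 (p 2))))))) := by
  obtain ⟨b, rfl⟩ := Nat.exists_eq_add_of_le ha
  have e0 : 3 + b - 0 = b + 3 := by omega
  have e2 : 3 + b - 3 = b := by omega
  have e3 : 3 + b - 2 = b + 1 := by omega
  have e4 : 3 + b - 1 = b + 2 := by omega
  simp only [Qo, B12, B13, map_mul, map_pow, map_sub, eval_X3, Gk, e0, e2, e3, e4]
  ring

theorem Qo_ne_zero {a : ℕ} (ha : 3 ≤ a) :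
    (fun c : Meas => integ c (fun p => eval (fun s : Fin 3 × Fin 3 => p s.1 s.2) (Qo a))) ≠ 0 := by
  intro h
  set P0 : Pt := ![1, 0, 0] with hP0
  set P1 : Pt := ![1, 1, 0] with hP1
  set c : Meas := Finsupp.single P0 2 + Finsupp.single P1 1 with hcdef
  have hM : ∀ k, ∑ x ∈ c.support, c x * Gk a k x = 2 * Gk a k P0 + 1 * Gk a k P1 := by
    intro k
    have h1 : c.sum (fun x r => r * Gk a k x) = 2 * Gk a k P0 + 1 * Gk a k P1 := by
      rw [hcdef, Finsupp.sum_add_index' (fun _ => zero_mul _) (fun _ _ _ => add_mul _ _ _),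
        Finsupp.sum_single_index (zero_mul _), Finsupp.sum_single_index (zero_mul _)]
    exact h1
  have hG0 : ∀ k, Gk a k P1 = 1 := by
    intro k
    simp [Gk, hP1]
  have hG1 : Gk a 0 P0 = 1 := by simp [Gk, hP0]
  have hG2 : ∀ k, Gk a (k + 1) P0 = 0 := by
    intro k
    simp [Gk, hP0]
  have hv := congrFun h c
  simp only [Pi.zero_apply] at hv
  rw [show (fun p : Fin 3 → Pt => eval (fun s : Fin 3 × Fin 3 => p s.1 s.2) (Qo a)) = _ from
    funext fun p => Qo_eval ha p] at hv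
  have i1 : ∀ j k l, integ c (fun p : Fin 3 → Pt => Gk a j (p 0) * Gk a k (p 1) * Gk a l (p 2)) =
      (2 * Gk a j P0 + 1 * Gk a j P1) * (2 * Gk a k P0 + 1 * Gk a k P1) *
        (2 * Gk a l P0 + 1 * Gk a l P1) := by
    intro j k l
    rw [← hM j, ← hM k, ← hM l]
    exact integ_prod c ![Gk a j, Gk a k, Gk a l]
  simp only [integ_add, integ_smul, i1] at hv
  rw [hG1, hG0, hG0, hG0, hG0, hG2 0, hG2 1, hG2 2] at hv
  norm_num at hv

/-- ROW 4d, the polynomial. -/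
theorem odd_Q (a : ℕ) (ha : 3 ≤ a) :
    ∃ Q : MvPolynomial (Fin 3 × Fin 3) ℂ, Multi a 3 Q ∧ Semi ![3 * a - 3, 3, 0] Q ∧
      (fun c : Meas => integ c (fun p => eval (fun s : Fin 3 × Fin 3 => p s.1 s.2) Q)) ≠ 0 :=
  ⟨Qo a, Qo_multi ha, Qo_semi ha, Qo_ne_zero ha⟩

end H330

/-- The statement of ROW 2 (master) for three points. -/
def MasterThree : Prop :=
  ∀ (a : ℕ) (lam : Fin 3 → ℕ) (Q : MvPolynomial (Fin 3 × Fin 3) ℂ), Multi a 3 Q → Semi lam Q →
    HWF a 3 lam (fun c => integ c (fun p => eval (fun s : Fin 3 × Fin 3 => p s.1 s.2) Q))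

/-- ROW 4c: `[123]^q`, `q` even (from row 2). -/
theorem exists_three_of (hM : MasterThree) (a q : ℕ) (hq : Even q) (hqa : q ≤ a) :
    ∃ f : Meas → ℂ, f ≠ 0 ∧ HWF a 3 ![3 * a - 2 * q, q, q] f := by
  obtain ⟨Q, h1, h2, h3⟩ := H330.three_Q a q hq hqa
  exact ⟨_, h3, hM a _ Q h1 h2⟩

/-- ROW 4d: `[12]^2[13]` (from row 2). -/
theorem exists_odd_of (hM : MasterThree) (a : ℕ) (ha : 3 ≤ a) :
    ∃ f : Meas → ℂ, f ≠ 0 ∧ HWF a 3 ![3 * a - 3, 3, 0] f := by
  obtain ⟨Q, h1, h2, h3⟩ := H330.odd_Q a ha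
  exact ⟨_, h3, hM a _ Q h1 h2⟩

end Vale.Agent.P181.H553
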